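import Mathlib

/-! Topological right triviality of families of functions on complex three-space. -/

namespace Vale.Agent.P298

/-- Points `(z, (x, y), t)` of complex three-space times the parameter line. -/
abbrev P : Type := ℂ × (ℂ × ℂ) × ℂ

/-- `Φ` is a parameter preserving homeomorphism of neighbourhoods of a small parameter disc that
fixes the disc and turns the family `F` into the constant family. -/
def Triv (F : P → ℂ) (Φ : OpenPartialHomeomorph P P) : Prop :=
  (∃ δ : ℝ, 0 < δ ∧ ∀ t : ℂ, ‖t‖ < δ → (0, 0, t) ∈ Φ.source ∧ Φ (0, 0, t) = (0, 0, t)) ∧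
    ∀ p ∈ Φ.source, (Φ p).2.2 = p.2.2 ∧ F (Φ p) = F (p.1, p.2.1, 0)

/-- The family is topologically right trivial. -/
def RightTrivial (F : P → ℂ) : Prop := ∃ Φ, Triv F Φ

/-- The family is right trivial by a trivialisation that is the identity at parameter zero and
preserves the hyperplane `z = 0`. -/
def RelTrivial (F : P → ℂ) : Prop :=
  ∃ Φ, Triv F Φ ∧ (∀ p ∈ Φ.source, p.2.2 = 0 → Φ p = p) ∧ ∀ p ∈ Φ.source, (Φ p).1 = 0 ↔ p.1 = 0

end Vale.Agent.P298
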