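import Vale.Agent.P298.Defs
import Vale.Agent.P268.Log

namespace Vale.Agent.P298

open Metric Set Filter Topology Complex Vale.Agent.P268

theorem cont_root {T : Type*} [TopologicalSpace T] {s : Set T} {g h : T → ℂ} {k : ℕ} (hk : k ≠ 0)
    (hg : ContinuousOn g s) (he : ∀ p ∈ s, h p ^ k = g p)
    (hc : ∀ p ∈ s, g p ≠ 0 → ContinuousWithinAt h s p) : ContinuousOn h s := by
  intro p hp
  by_cases h0 : g p = 0
  · have hp0 : h p = 0 := pow_eq_zero_iff hk |>.mp ((he p hp).trans h0)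
    rw [ContinuousWithinAt, hp0, Metric.tendsto_nhds]
    intro ε hε
    have := Metric.tendsto_nhds.mp (hg p hp) (ε ^ k) (by positivity)
    filter_upwards [this, self_mem_nhdsWithin] with q h1 h2
    rw [h0, dist_zero_right, ← he q h2, norm_pow] at h1
    rw [dist_zero_right]
    exact lt_of_pow_lt_pow_left₀ k hε.le h1
  · exact hc p hp h0

theorem lift {G : P → ℂ} (h : RelTrivial G) {k : ℕ} (hk : k ≠ 0) :
    ∃ Φ, Triv (fun p => G (p.1 ^ k, p.2)) Φ ∧ ∀ p ∈ Φ.source, (Φ p).1 = 0 ↔ p.1 = 0 := by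
  obtain ⟨ψ, ⟨⟨δ, hδ, hfix⟩, hψ⟩, hid, hH⟩ := h
  obtain ⟨ρ, hρ, hB⟩ := Metric.isOpen_iff.mp ψ.open_source (0, 0, 0) (hfix 0 (by simpa using hδ)).1
  have hB' : ∀ p : P, p ∈ ball (0 : ℂ) ρ ×ˢ ball (0 : (ℂ × ℂ) × ℂ) ρ → p ∈ ψ.source :=
    fun p hp => hB (by rw [ball_prod_same] at hp; exact hp)
  set B : Set P := ball (0 : ℂ) ρ ×ˢ ball (0 : (ℂ × ℂ) × ℂ) ρ with hBd
  have hBo : IsOpen B := isOpen_ball.prod isOpen_ball
  obtain ⟨j, hj⟩ := exists_wind (convex_ball (0 : (ℂ × ℂ) × ℂ) ρ) isOpen_ball hρ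
    (F := fun p => (ψ p).1)
    (continuous_fst.comp_continuousOn (ψ.continuousOn.mono fun p hp => hB' p ⟨hp.1.1, hp.2⟩))
    fun p hp h0 => hp.1.2 ((hH p (hB' p ⟨hp.1.1, hp.2⟩)).mp h0)
  have hsph : ∀ z ∈ sphere (0 : ℂ) (ρ / 2), z ∈ ball (0 : ℂ) ρ \ {0} := fun z hz =>
    ⟨sphere_subset_ball (by linarith) hz, ne_of_mem_sphere hz (by positivity)⟩
  have hj1 : j = 1 := by
    refine wind_unique (F := fun z => z) (r := ρ / 2) (by positivity) ?_ ?_
    · refine (hj.comp (u := fun z : ℂ => (z, (0 : (ℂ × ℂ) × ℂ))) (by fun_prop)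
        fun z hz => ⟨hsph z hz, mem_ball_self hρ⟩).congr' fun z hz => ?_
      rw [hid _ (hB' _ ⟨(hsph z hz).1, mem_ball_self hρ⟩) rfl]
    · exact (HL.const one_ne_zero _).congr' fun z hz => by
        rw [zpow_one, div_self (hsph z hz).2]
  obtain ⟨l, hl1, hl2⟩ := hj
  rw [hj1] at hl2
  have hkc : (k : ℂ) ≠ 0 := by exact_mod_cast hk
  have hexp : ∀ a : ℂ, exp (a / k) ^ k = exp a := fun a => by
    rw [← exp_nat_mul, mul_div_cancel₀ _ hkc]
  have hrel : ∀ p ∈ B, p.1 * exp (l p) = (ψ p).1 := by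
    intro p hp
    by_cases h0 : p.1 = 0
    · rw [h0, zero_mul, (hH p (hB' p hp)).mpr h0]
    · rw [hl2 p ⟨⟨hp.1, h0⟩, hp.2⟩]
      simp only [zpow_one]
      field_simp
  have hla : ∀ p ∈ B, p.1 ≠ 0 → ContinuousAt l p := fun p hp h0 => hl1.continuousAt
    (((isOpen_ball.sdiff isClosed_singleton).prod isOpen_ball).mem_nhds ⟨⟨hp.1, h0⟩, hp.2⟩)
  set π : P → P := fun p => (p.1 ^ k, p.2) with hπ
  have hπc : Continuous π := by fun_prop
  set f : P → P := fun p => (p.1 * exp (l (π p) / k), (ψ (π p)).2) with hf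
  set g : P → P := fun q => (q.1 * exp (-l (ψ.symm (π q)) / k), (ψ.symm (π q)).2) with hg
  have hπf : ∀ p, π p ∈ B → π (f p) = ψ (π p) := fun p hp =>
    Prod.ext (by simp only [hπ, hf, mul_pow, hexp]; exact hrel _ hp) rfl
  have hπg : ∀ q, π q ∈ ψ.target ∩ ψ.symm ⁻¹' B → π (g q) = ψ.symm (π q) := by
    intro q hq
    refine Prod.ext ?_ rfl
    have e := hrel _ hq.2
    rw [ψ.right_inv hq.1] at e
    show (q.1 * exp (-l (ψ.symm (π q)) / k)) ^ k = _
    rw [mul_pow, hexp, show q.1 ^ k = (π q).1 from rfl, ← e, mul_assoc, ← exp_add]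
    simp
  have c1 : ContinuousOn (fun p => ψ (π p)) (π ⁻¹' B) :=
    ψ.continuousOn.comp hπc.continuousOn fun p hp => hB' _ hp
  have c2 : ContinuousOn (fun q => ψ.symm (π q)) (π ⁻¹' (ψ.target ∩ ψ.symm ⁻¹' B)) :=
    ψ.continuousOn_symm.comp hπc.continuousOn fun p hp => hp.1
  let Φ : OpenPartialHomeomorph P P :=
    { toFun := f
      invFun := g
      source := π ⁻¹' B
      target := π ⁻¹' (ψ.target ∩ ψ.symm ⁻¹' B)
      map_source' := fun p hp => by
        show π (f p) ∈ ψ.target ∩ ψ.symm ⁻¹' B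
        rw [hπf p hp]
        exact ⟨ψ.map_source (hB' _ hp), by rw [mem_preimage, ψ.left_inv (hB' _ hp)]; exact hp⟩
      map_target' := fun q hq => by
        show π (g q) ∈ B
        rw [hπg q hq]
        exact hq.2
      left_inv' := fun p hp => by
        simp only [hg]
        rw [hπf p hp, ψ.left_inv (hB' _ hp)]
        refine Prod.ext ?_ rfl
        show p.1 * exp (l (π p) / k) * exp (-l (π p) / k) = p.1
        rw [mul_assoc, ← exp_add, neg_div, add_neg_cancel, exp_zero, mul_one]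
      right_inv' := fun q hq => by
        simp only [hf]
        rw [hπg q hq, ψ.right_inv hq.1]
        refine Prod.ext ?_ rfl
        show q.1 * exp (-l (ψ.symm (π q)) / k) * exp (l (ψ.symm (π q)) / k) = q.1
        rw [mul_assoc, ← exp_add, neg_div, neg_add_cancel, exp_zero, mul_one]
      open_source := hBo.preimage hπc
      open_target := (ψ.isOpen_inter_preimage_symm hBo).preimage hπc
      continuousOn_toFun := by
        refine ContinuousOn.prodMk (cont_root hk (continuous_fst.comp_continuousOn c1)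
          (fun p hp => congrArg Prod.fst (hπf p hp)) fun p hp h0 => ?_)
          (continuous_snd.comp_continuousOn c1)
        have := (hla _ hp fun h' => h0 ((hH _ (hB' _ hp)).mpr h')).comp hπc.continuousAt
        exact (continuousAt_fst.mul (this.div_const _).cexp).continuousWithinAt
      continuousOn_invFun := by
        refine ContinuousOn.prodMk (cont_root hk (continuous_fst.comp_continuousOn c2)
          (fun q hq => congrArg Prod.fst (hπg q hq)) fun q hq h0 => ?_)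
          (continuous_snd.comp_continuousOn c2)
        have := ContinuousAt.comp_continuousWithinAt (f := fun q => ψ.symm (π q))
          (hla _ hq.2 h0) (c2 q hq)
        exact continuousWithinAt_fst.mul (this.neg.div_const _).cexp }
  refine ⟨Φ, ⟨⟨min δ ρ, lt_min hδ hρ, fun t ht => ?_⟩, fun p hp => ⟨(hψ _ (hB' _ hp)).1, ?_⟩⟩,
    fun p _ => ?_⟩
  · have e : π (0, 0, t) = (0, 0, t) := by simp [hπ, hk]
    refine ⟨?_, ?_⟩
    · show π (0, 0, t) ∈ B
      rw [e]
      refine ⟨mem_ball_self hρ, ?_⟩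
      simpa [Prod.norm_def, hρ] using ht.trans_le (min_le_right _ _)
    · show f (0, 0, t) = _
      simp only [hf]
      rw [e, (hfix t (ht.trans_le (min_le_left _ _))).2, zero_mul]
  · show G (π (f p)) = _
    rw [hπf p hp]
    exact (hψ _ (hB' _ hp)).2
  · show p.1 * exp (l (π p) / k) = 0 ↔ _
    simp

end Vale.Agent.P298
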